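import Mathlib

/-! GRID row G6 (Diestel, Lemma 12.4.7 form): a sparse bipartite relation has a big independent pair. -/

namespace Vale.Agent.P235.H182

open Finset

/-- If `R` has few pairs on `A × B` then there are `C ⊆ A`, `D ⊆ B` of sizes `c`, `d` without
any related pair. -/
theorem bip {α β : Type*} (R : α → β → Prop) [∀ x y, Decidable (R x y)]
    (A : Finset α) (B : Finset β) {c d : ℕ} (hc : c ≤ A.card) (hd : d ≤ B.card)
    (he : d * (((A ×ˢ B).filter fun p => R p.1 p.2).card) ≤ (A.card - c) * (B.card - d)) :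
    ∃ C ⊆ A, ∃ D ⊆ B, C.card = c ∧ D.card = d ∧ ∀ x ∈ C, ∀ y ∈ D, ¬ R x y := by
  classical
  set deg : β → ℕ := fun y => (A.filter fun x => R x y).card with hdeg
  have hE : ((A ×ˢ B).filter fun p => R p.1 p.2).card = ∑ y ∈ B, deg y := by
    rw [Finset.card_filter, Finset.sum_product_right]
    refine Finset.sum_congr rfl fun y _ => ?_
    rw [hdeg]
    simp only [Finset.card_filter]
  set B' := B.filter fun y => A.card - c < d * deg y with hB'
  have hB'c : B'.card ≤ B.card - d := by
    by_contra hlt
    have hlt : B.card - d + 1 ≤ B'.card := by omega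
    have h1 : B'.card * (A.card - c + 1) ≤ d * ∑ y ∈ B, deg y := by
      rw [Finset.mul_sum]
      calc B'.card * (A.card - c + 1) = ∑ _y ∈ B', (A.card - c + 1) := by
            rw [Finset.sum_const, smul_eq_mul]
        _ ≤ ∑ y ∈ B', d * deg y := by
            refine Finset.sum_le_sum fun y hy => ?_
            have := (Finset.mem_filter.1 hy).2
            omega
        _ ≤ ∑ y ∈ B, d * deg y :=
            Finset.sum_le_sum_of_subset (Finset.filter_subset _ _)
    have h2 : (B.card - d + 1) * (A.card - c + 1) ≤ (A.card - c) * (B.card - d) := by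
      calc (B.card - d + 1) * (A.card - c + 1) ≤ B'.card * (A.card - c + 1) :=
            Nat.mul_le_mul_right _ hlt
        _ ≤ d * ∑ y ∈ B, deg y := h1
        _ ≤ _ := by rw [← hE]; exact he
    nlinarith
  have hcompl : d ≤ (B \ B').card := by
    have hsub : B' ⊆ B := Finset.filter_subset _ _
    have := Finset.card_sdiff_add_card_eq_card hsub
    omega
  obtain ⟨D, hDsub, hDc⟩ := Finset.exists_subset_card_eq hcompl
  have hDB : D ⊆ B := hDsub.trans Finset.sdiff_subset
  have hDdeg : ∀ y ∈ D, d * deg y ≤ A.card - c := by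
    intro y hy
    have h := hDsub hy
    rw [Finset.mem_sdiff, hB', Finset.mem_filter] at h
    by_contra hlt
    exact h.2 ⟨h.1, by omega⟩
  -- the vertices of `A` related to some vertex of `D`
  set N := A.filter fun x => ∃ y ∈ D, R x y with hN
  have hNc : N.card ≤ A.card - c := by
    have h1 : N.card ≤ ∑ y ∈ D, deg y := by
      have hsub : N ⊆ D.biUnion fun y => A.filter fun x => R x y := by
        intro x hx
        obtain ⟨hxA, y, hy, hxy⟩ := Finset.mem_filter.1 hx
        exact Finset.mem_biUnion.2 ⟨y, hy, Finset.mem_filter.2 ⟨hxA, hxy⟩⟩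
      exact (Finset.card_le_card hsub).trans Finset.card_biUnion_le
    rcases Nat.eq_zero_or_pos d with h0 | hpos
    · have : D = ∅ := Finset.card_eq_zero.1 (hDc.trans h0)
      rw [this, Finset.sum_empty] at h1
      omega
    · have h2 : d * ∑ y ∈ D, deg y ≤ d * (A.card - c) := by
        rw [Finset.mul_sum]
        calc ∑ y ∈ D, d * deg y ≤ ∑ _y ∈ D, (A.card - c) :=
              Finset.sum_le_sum fun y hy => hDdeg y hy
          _ = d * (A.card - c) := by rw [Finset.sum_const, smul_eq_mul, hDc]
      exact h1.trans (Nat.le_of_mul_le_mul_left h2 hpos)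
  have hcA : c ≤ (A \ N).card := by
    have hsub : N ⊆ A := Finset.filter_subset _ _
    have := Finset.card_sdiff_add_card_eq_card hsub
    omega
  obtain ⟨C, hCsub, hCc⟩ := Finset.exists_subset_card_eq hcA
  refine ⟨C, hCsub.trans Finset.sdiff_subset, D, hDB, hCc, hDc, fun x hx y hy hxy => ?_⟩
  have h := hCsub hx
  rw [Finset.mem_sdiff, hN, Finset.mem_filter] at h
  exact h.2 ⟨h.1, y, hy, hxy⟩

end Vale.Agent.P235.H182
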